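import Crest.Agent.Helper68.S0076.Defs

/-!
# S0076 log-spread lemma, leaf RE (helper3): four real-analysis facts used in Theorem C'

Statements copied verbatim from `Crest/Agent/Helper68/S0076/Blueprint.lean`
(`rpow_slots_mono`, `heavy_weight`, `num_small`, `num_large`).
-/

set_option autoImplicit false

namespace Crest.Agent.Helper3.S0076

open Finset Crest.Agent.Helper68.S0076
open scoped Pointwise

/-- `s ↦ (E/s)^s` is nondecreasing for `s ≤ E/e`. -/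
theorem rpow_slots_mono (E m s : ℕ) (K : ℝ) (hK : 1 ≤ K) (hs : 1 ≤ s) (hsm : s ≤ m)
    (hmE : Real.exp 1 * (m : ℝ) ≤ (E : ℝ)) :
    ((E : ℝ) / s) ^ ((s : ℝ) / K) ≤ ((E : ℝ) / m) ^ ((m : ℝ) / K) := by
  have hs0 : (0:ℝ) < s := by exact_mod_cast hs
  have hsm' : (s:ℝ) ≤ m := by exact_mod_cast hsm
  have hm0 : (0:ℝ) < m := lt_of_lt_of_le hs0 hsm'
  have hE0 : (0:ℝ) < E := lt_of_lt_of_le (mul_pos (Real.exp_pos 1) hm0) hmE
  have hK0 : (0:ℝ) < K := lt_of_lt_of_le one_pos hK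
  have h1 : 0 < (E:ℝ)/s := div_pos hE0 hs0
  have h2 : 0 < (E:ℝ)/m := div_pos hE0 hm0
  have h3 : 0 < (m:ℝ)/s := div_pos hm0 hs0
  rw [Real.rpow_def_of_pos h1, Real.rpow_def_of_pos h2]
  apply Real.exp_le_exp.mpr
  have hlog1 : 1 ≤ Real.log ((E:ℝ)/m) := by
    rw [Real.le_log_iff_exp_le h2, le_div_iff₀ hm0]
    exact hmE
  have hlog2 : Real.log ((m:ℝ)/s) ≤ (m:ℝ)/s - 1 := Real.log_le_sub_one_of_pos h3
  have hsplit : Real.log ((E:ℝ)/s) = Real.log ((E:ℝ)/m) + Real.log ((m:ℝ)/s) := by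
    rw [← Real.log_mul h2.ne' h3.ne']
    congr 1
    field_simp
  have key : Real.log ((E:ℝ)/s) * s ≤ Real.log ((E:ℝ)/m) * m := by
    rw [hsplit]
    have h4 : Real.log ((m:ℝ)/s) * s ≤ m - s := by
      calc Real.log ((m:ℝ)/s) * s ≤ ((m:ℝ)/s - 1) * s :=
            mul_le_mul_of_nonneg_right hlog2 hs0.le
        _ = m - s := by field_simp
    nlinarith
  calc Real.log ((E:ℝ)/s) * ((s:ℝ)/K) = (Real.log ((E:ℝ)/s) * s) / K := by ring
    _ ≤ (Real.log ((E:ℝ)/m) * m) / K := div_le_div_of_nonneg_right key hK0.le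
    _ = Real.log ((E:ℝ)/m) * ((m:ℝ)/K) := by ring

/-- every point of an optimal host is heavy -/
theorem heavy_weight (E m : ℕ) (K : ℝ) (hK : 1 ≤ K) (hm : 1 ≤ m) (hmE : m ≤ E) (hE : 2 ≤ E) :
    (1 - Real.exp (-1)) * (m : ℝ) / (K * E)
      ≤ 1 - ((((E : ℝ) - 1) / m) / ((E : ℝ) / m)) ^ ((m : ℝ) / K) := by
  have hm0 : (0:ℝ) < m := by exact_mod_cast hm
  have hE2 : (2:ℝ) ≤ E := by exact_mod_cast hE
  have hE0 : (0:ℝ) < E := by linarith
  have hK0 : (0:ℝ) < K := lt_of_lt_of_le one_pos hK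
  have hmE' : (m:ℝ) ≤ E := by exact_mod_cast hmE
  have hbase : (((E : ℝ) - 1) / m) / ((E : ℝ) / m) = 1 - 1 / (E:ℝ) := by
    field_simp
  rw [hbase]
  have hb0 : 0 < 1 - 1 / (E:ℝ) := by
    have : 1 / (E:ℝ) ≤ 1/2 := by
      rw [div_le_div_iff₀ hE0 (by norm_num)]; linarith
    linarith
  have hKE : 0 < K * E := mul_pos hK0 hE0
  set t : ℝ := (m:ℝ) / (K * E) with ht
  have ht0 : 0 ≤ t := (div_pos hm0 hKE).le
  have ht1 : t ≤ 1 := by
    rw [ht, div_le_one hKE]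
    calc (m:ℝ) ≤ E := hmE'
      _ = 1 * E := by ring
      _ ≤ K * E := mul_le_mul_of_nonneg_right hK hE0.le
  have hpow : (1 - 1 / (E:ℝ)) ^ ((m : ℝ) / K) ≤ Real.exp (-t) := by
    rw [Real.rpow_def_of_pos hb0]
    apply Real.exp_le_exp.mpr
    have hl : Real.log (1 - 1 / (E:ℝ)) ≤ -(1 / (E:ℝ)) := by
      have := Real.log_le_sub_one_of_pos hb0
      linarith
    have hmK : 0 ≤ (m:ℝ)/K := (div_pos hm0 hK0).le
    calc Real.log (1 - 1 / (E:ℝ)) * ((m:ℝ)/K) ≤ -(1 / (E:ℝ)) * ((m:ℝ)/K) :=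
          mul_le_mul_of_nonneg_right hl hmK
      _ = -t := by rw [ht]; field_simp
  have hconv : Real.exp (-t) ≤ 1 - t * (1 - Real.exp (-1)) := by
    have h := convexOn_exp.2 (Set.mem_univ (0:ℝ)) (Set.mem_univ (-1:ℝ))
      (by linarith : (0:ℝ) ≤ 1 - t) ht0 (by ring)
    simp only [smul_eq_mul, mul_zero, Real.exp_zero, mul_one, zero_add, mul_neg] at h
    linarith
  have hrw : (1 - Real.exp (-1)) * (m : ℝ) / (K * E) = t * (1 - Real.exp (-1)) := by
    rw [ht]; ring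
  rw [hrw]
  linarith

theorem num_small : (2 : ℝ) ^ (Real.exp 1 + 1) < 14.8 := by
  have he : Real.exp 1 + 1 ≤ (15/4 : ℝ) := by
    have := Real.exp_one_lt_d9
    linarith
  have h1 : (2 : ℝ) ^ (Real.exp 1 + 1) ≤ (2:ℝ) ^ (15/4 : ℝ) :=
    Real.rpow_le_rpow_of_exponent_le (by norm_num) he
  have h2 : ((2:ℝ) ^ (15/4 : ℝ)) ^ (4:ℕ) = 32768 := by
    rw [← Real.rpow_natCast, ← Real.rpow_mul (by norm_num)]
    have : (15/4 : ℝ) * ((4:ℕ):ℝ) = ((15:ℕ):ℝ) := by norm_num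
    rw [this, Real.rpow_natCast]
    norm_num
  have h3 : (2:ℝ) ^ (15/4 : ℝ) < 14.8 := by
    by_contra hcon
    rw [not_lt] at hcon
    have := pow_le_pow_left₀ (by norm_num) hcon 4
    rw [h2] at this
    norm_num at this
  linarith

theorem num_large (E : ℕ) (hE : 3 ≤ E) :
    Real.exp ((Real.log 2) / E + 2) / (1 - Real.exp (-1)) < 14.8 := by
  have hE3 : (3:ℝ) ≤ E := by exact_mod_cast hE
  have hlog2 : 0 < Real.log 2 := Real.log_pos (by norm_num)
  have h1 : Real.log 2 / E ≤ Real.log 2 / 3 :=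
    div_le_div_of_nonneg_left hlog2.le (by norm_num) hE3
  have h2 : Real.exp (Real.log 2 / 3) < 1.26 := by
    by_contra hcon
    rw [not_lt] at hcon
    have h := pow_le_pow_left₀ (by norm_num) hcon 3
    rw [← Real.exp_nat_mul] at h
    have h3 : ((3:ℕ):ℝ) * (Real.log 2 / 3) = Real.log 2 := by push_cast; ring
    rw [h3, Real.exp_log (by norm_num)] at h
    norm_num at h
  have h3 : Real.exp 2 < 7.3891 := by
    have h : Real.exp 2 = Real.exp 1 ^ 2 := by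
      rw [← Real.exp_nat_mul]; norm_num
    rw [h]
    have := Real.exp_one_lt_d9
    have h0 := Real.exp_pos 1
    nlinarith
  have h4 : Real.exp (-1) < 0.36788 := by
    rw [Real.exp_neg]
    have := Real.exp_one_gt_d9
    rw [inv_lt_comm₀ (Real.exp_pos 1) (by norm_num)]
    calc (0.36788:ℝ)⁻¹ < 2.7182818283 := by norm_num
      _ < Real.exp 1 := this
  have h5 : Real.exp (Real.log 2 / E + 2) < 1.26 * 7.3891 := by
    rw [Real.exp_add]
    have h6 : Real.exp (Real.log 2 / E) ≤ Real.exp (Real.log 2 / 3) := Real.exp_le_exp.mpr h1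
    have hp := Real.exp_pos (Real.log 2 / E)
    have hp2 := Real.exp_pos 2
    nlinarith
  rw [div_lt_iff₀ (by linarith)]
  nlinarith

end Crest.Agent.Helper3.S0076
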